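import Vale.Agent.Lib.P230.Ball.Defs

/-!
# P230 ball route, fine version: a band of width `10001/10000` of the radius of positive proportion.
-/

set_option autoImplicit false

open MeasureTheory Finset
open scoped ENNReal Matrix

namespace Vale.Agent.Lib.P230.WB4

variable {n : ℕ}

private lemma cover_aux4 (a b : ℝ) (ha : b ≤ a) (m : ℕ)
    (hm : a ≤ b * (10001 / 10000) ^ (m + 1)) :
    ∃ k, k ≤ m ∧ b * (10001 / 10000) ^ k ≤ a ∧ a ≤ (10001 / 10000) * (b * (10001 / 10000) ^ k) := by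
  induction m with
  | zero =>
    refine ⟨0, le_rfl, by simpa using ha, ?_⟩
    simpa [mul_comm] using hm
  | succ m ih =>
    by_cases h : a ≤ b * (10001 / 10000) ^ (m + 1)
    · obtain ⟨k, hk, h1, h2⟩ := ih h
      exact ⟨k, by omega, h1, h2⟩
    · refine ⟨m + 1, le_rfl, (not_le.mp h).le, ?_⟩
      calc a ≤ b * (10001 / 10000) ^ (m + 1 + 1) := hm
        _ = (10001 / 10000) * (b * (10001 / 10000) ^ (m + 1)) := by ring

/-- MODULE B5: a band of the radius of positive proportion. `T = K₀ ∩ {|x|² ≥ n/122}` has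
`vol T ≥ vol K₀/1220`; `(10001/10000)^80000 ≥ 1220`; pigeonhole over `ϱ_k = (1/122)(10001/10000)^k`, `k < 80000`. -/
theorem band_exists4 (hn : 0 < n) (K₀ : Set (Fin n → ℝ)) (hK : IsCompact K₀) (hvol : 0 < volume K₀)
    (hrad : ∀ x ∈ K₀, ∑ j, x j ^ 2 ≤ 10 * (n : ℝ))
    (hmean : ((n : ℝ) / 61) * (volume K₀).toReal ≤ ∫ x in K₀, ∑ j, x j ^ 2) :
    ∃ ϱ : ℝ, 1 / 122 ≤ ϱ ∧
      (1 / 100000000 : ℝ) * (volume K₀).toReal ≤
        (volume (K₀ ∩ {x | ϱ * (n : ℝ) ≤ ∑ j, x j ^ 2 ∧ ∑ j, x j ^ 2 ≤ (10001 / 10000) * ϱ * (n : ℝ)})).toReal := by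
  classical
  have hn' : (0 : ℝ) < n := by exact_mod_cast hn
  have hNc : Continuous (fun x : Fin n → ℝ => ∑ j, x j ^ 2) := by fun_prop
  have hKm : MeasurableSet K₀ := hK.measurableSet
  have hfin : volume K₀ ≠ ⊤ := hK.measure_lt_top.ne
  have hV : 0 < (volume K₀).toReal := ENNReal.toReal_pos hvol.ne' hfin
  set V := (volume K₀).toReal with hVdef
  -- the set of large radius
  set S : Set (Fin n → ℝ) := {x | (n : ℝ) / 122 ≤ ∑ j, x j ^ 2} with hS
  have hSm : MeasurableSet S := measurableSet_le measurable_const hNc.measurable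
  have hfinT : volume (K₀ ∩ S) ≠ ⊤ :=
    (lt_of_le_of_lt (measure_mono Set.inter_subset_left) hK.measure_lt_top).ne
  have hfinD : volume (K₀ \ S) ≠ ⊤ :=
    (lt_of_le_of_lt (measure_mono Set.sdiff_subset) hK.measure_lt_top).ne
  have hint : IntegrableOn (fun x : Fin n → ℝ => ∑ j, x j ^ 2) K₀ :=
    hNc.continuousOn.integrableOn_compact hK
  have hsplit := integral_inter_add_sdiff (μ := volume) (s := K₀) hSm hint
  have h1 : ∫ x in K₀ ∩ S, ∑ j, x j ^ 2 ≤ 10 * (n : ℝ) * (volume (K₀ ∩ S)).toReal := by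
    have := setIntegral_mono_on (μ := volume) (s := K₀ ∩ S)
      (f := fun x : Fin n → ℝ => ∑ j, x j ^ 2) (g := fun _ => 10 * (n : ℝ))
      (hint.mono_set Set.inter_subset_left)
      (integrableOn_const hfinT) (hKm.inter hSm) (fun x hx => hrad x hx.1)
    simpa [Measure.real, smul_eq_mul, mul_comm] using this
  have h2 : ∫ x in K₀ \ S, ∑ j, x j ^ 2 ≤ (n : ℝ) / 122 * V := by
    have := setIntegral_mono_on (μ := volume) (s := K₀ \ S)
      (f := fun x : Fin n → ℝ => ∑ j, x j ^ 2) (g := fun _ => (n : ℝ) / 122)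
      (hint.mono_set Set.sdiff_subset)
      (integrableOn_const hfinD) (hKm.diff hSm)
      (fun x hx => (not_le.mp hx.2).le)
    have h3 : (volume (K₀ \ S)).toReal ≤ V :=
      ENNReal.toReal_mono hfin (measure_mono Set.sdiff_subset)
    have h4 : ∫ x in K₀ \ S, (n : ℝ) / 122 = (volume (K₀ \ S)).toReal * ((n : ℝ) / 122) := by
      simp [Measure.real, smul_eq_mul]
    rw [h4] at this
    nlinarith [div_pos hn' (by norm_num : (0 : ℝ) < 122)]
  have hT : V / 1220 ≤ (volume (K₀ ∩ S)).toReal := by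
    have h5 : (n : ℝ) / 61 * V ≤ 10 * (n : ℝ) * (volume (K₀ ∩ S)).toReal + (n : ℝ) / 122 * V := by
      linarith
    have h6 : (n : ℝ) * (V / 1220) ≤ (n : ℝ) * (volume (K₀ ∩ S)).toReal := by
      nlinarith
    exact le_of_mul_le_mul_left h6 hn'
  -- bands
  set band : ℕ → Set (Fin n → ℝ) := fun k =>
    K₀ ∩ {x | (1 / 122 * (10001 / 10000 : ℝ) ^ k) * (n : ℝ) ≤ ∑ j, x j ^ 2 ∧
      ∑ j, x j ^ 2 ≤ (10001 / 10000) * (1 / 122 * (10001 / 10000 : ℝ) ^ k) * (n : ℝ)} with hband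
  have hpow : (1220 : ℝ) ≤ (10001 / 10000) ^ 80000 := by
    have h100 : (8 / 5 : ℝ) ≤ (10001 / 10000) ^ 5000 := by
      have h250 : (128 / 100 : ℝ) ≤ (10001 / 10000) ^ 2500 := by
        have h1 : (128 / 100 : ℝ) ≤ ((10001 / 10000) ^ 250) ^ 10 := by
          have h2 : (1025 / 1000 : ℝ) ≤ (10001 / 10000) ^ 250 := by norm_num
          calc (128 / 100 : ℝ) ≤ (1025 / 1000) ^ 10 := by norm_num
            _ ≤ _ := pow_le_pow_left₀ (by norm_num) h2 10
        calc (128 / 100 : ℝ) ≤ ((10001 / 10000) ^ 250) ^ 10 := h1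
          _ = (10001 / 10000) ^ 2500 := by rw [← pow_mul]
      calc (8 / 5 : ℝ) ≤ (128 / 100) ^ 2 := by norm_num
        _ ≤ ((10001 / 10000) ^ 2500) ^ 2 := pow_le_pow_left₀ (by norm_num) h250 2
        _ = (10001 / 10000) ^ 5000 := by rw [← pow_mul]
    calc (1220 : ℝ) ≤ (8 / 5) ^ 16 := by norm_num
      _ ≤ ((10001 / 10000) ^ 5000) ^ 16 := pow_le_pow_left₀ (by norm_num) h100 16
      _ = (10001 / 10000) ^ 80000 := by rw [← pow_mul]
  have hcover : K₀ ∩ S ⊆ ⋃ k ∈ Finset.range 80000, band k := by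
    rintro x ⟨hxK, hxS⟩
    have hb : (0 : ℝ) < (n : ℝ) / 122 := by positivity
    have hm : ∑ j, x j ^ 2 ≤ (n : ℝ) / 122 * (10001 / 10000) ^ (79999 + 1) := by
      have := hrad x hxK
      calc ∑ j, x j ^ 2 ≤ 10 * (n : ℝ) := this
        _ = (n : ℝ) / 122 * 1220 := by ring
        _ ≤ _ := by
          apply mul_le_mul_of_nonneg_left hpow hb.le
    obtain ⟨k, hk, h1, h2⟩ := cover_aux4 _ _ hxS 79999 hm
    simp only [Set.mem_iUnion, Finset.mem_range]
    refine ⟨k, by omega, hxK, ?_, ?_⟩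
    · calc (1 / 122 * (10001 / 10000 : ℝ) ^ k) * (n : ℝ) = (n : ℝ) / 122 * (10001 / 10000) ^ k := by ring
        _ ≤ _ := h1
    · calc ∑ j, x j ^ 2 ≤ (10001 / 10000) * ((n : ℝ) / 122 * (10001 / 10000) ^ k) := h2
        _ = _ := by ring
  have hbandfin : ∀ k, volume (band k) ≠ ⊤ := fun k =>
    (lt_of_le_of_lt (measure_mono Set.inter_subset_left) hK.measure_lt_top).ne
  have hsum : (volume (K₀ ∩ S)).toReal ≤ ∑ k ∈ Finset.range 80000, (volume (band k)).toReal := by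
    rw [← ENNReal.toReal_sum (fun k _ => hbandfin k)]
    apply ENNReal.toReal_mono
    · exact ENNReal.sum_ne_top.mpr (fun k _ => hbandfin k)
    · exact (measure_mono hcover).trans (measure_biUnion_finset_le _ _)
  by_contra hcon
  push Not at hcon
  have hlt : ∀ k ∈ Finset.range 80000, (volume (band k)).toReal < 1 / 100000000 * V := by
    intro k _
    apply hcon
    have : (1 : ℝ) ≤ (10001 / 10000) ^ k := one_le_pow₀ (by norm_num)
    calc (1 / 122 : ℝ) = 1 / 122 * 1 := by ring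
      _ ≤ _ := by apply mul_le_mul_of_nonneg_left this (by norm_num)
  have hsum2 : ∑ k ∈ Finset.range 80000, (volume (band k)).toReal
      < ∑ _k ∈ Finset.range 80000, (1 / 100000000 * V) :=
    Finset.sum_lt_sum_of_nonempty (by simp) hlt
  simp only [Finset.sum_const, Finset.card_range, nsmul_eq_mul] at hsum2
  push_cast at hsum2
  linarith

end Vale.Agent.Lib.P230.WB4
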