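import Vale.Agent.Lib.P230.Ball.Defs

/-!
# P230 ball route, fine version: the grid of centres.
`ballGrid4_card`: size of the grid. `ballGrid4_dir`: rounding a direction to the grid.
-/

set_option autoImplicit false

open MeasureTheory Finset
open scoped ENNReal Matrix

namespace Vale.Agent.Lib.P230.WB4

/-- The grid of centres: coordinates in `(1/10000) ℤ`, `|y|² ≤ (10001/10000)² t`. -/
noncomputable def ballGrid4 (t : ℕ) : Finset (Fin t → ℝ) :=
  open Classical in
  ((Fintype.piFinset fun _ : Fin t => Finset.Icc (-(10000 * (t : ℤ) + 1)) (10000 * (t : ℤ) + 1)).image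
    (fun k i => (k i : ℝ) / 10000)).filter (fun y => ∑ i, y i ^ 2 ≤ (10001 / 10000) ^ 2 * (t : ℝ))


/-- MODULE B4a: size of the grid. -/
theorem ballGrid4_card (t : ℕ) : ((ballGrid4 t).card : ℝ) ≤ (20000 * (t : ℝ) + 3) ^ t := by
  classical
  have hc : ((Finset.Icc (-(10000 * (t : ℤ) + 1)) (10000 * (t : ℤ) + 1)).card : ℝ) =
      20000 * (t : ℝ) + 3 := by
    rw [Int.card_Icc]
    have e1 : (10000 * (t : ℤ) + 1 + 1 - -(10000 * (t : ℤ) + 1)) = 20000 * (t : ℤ) + 3 := by ring
    rw [e1]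
    have h2 : ((20000 * (t : ℤ) + 3).toNat : ℤ) = 20000 * (t : ℤ) + 3 :=
      Int.toNat_of_nonneg (by positivity)
    have h3 : (((20000 * (t : ℤ) + 3).toNat : ℕ) : ℝ) = (((20000 * (t : ℤ) + 3).toNat : ℤ) : ℝ) :=
      (Int.cast_natCast _).symm
    rw [h3, h2]
    push_cast
    ring
  unfold ballGrid4
  refine le_trans (Nat.cast_le.mpr (Finset.card_filter_le _ _)) ?_
  refine le_trans (Nat.cast_le.mpr Finset.card_image_le) ?_
  rw [Fintype.card_piFinset]
  simp only [Finset.prod_const, Finset.card_univ, Fintype.card_fin, Nat.cast_pow, hc]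
  exact le_rfl

/-- MODULE B4b: rounding a direction to the grid. `k i = round (10000 √t b i)`; `|y - √t b| ≤ √t/20000`. -/
theorem ballGrid4_dir {t : ℕ} (ht : 1 ≤ t) (b : Fin t → ℝ) (hb : ∑ i, b i ^ 2 = 1) :
    ∃ y ∈ ballGrid4 t, (19999 / 20000) * Real.sqrt t ≤ ∑ i, y i * b i := by
  classical
  have ht0 : (1 : ℝ) ≤ (t : ℝ) := by exact_mod_cast ht
  set s : ℝ := Real.sqrt t with hs
  have hs2 : s ^ 2 = (t : ℝ) := Real.sq_sqrt (by linarith)
  have hs0 : 0 ≤ s := Real.sqrt_nonneg _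
  have hs1 : 1 ≤ s := by
    rw [hs]; exact Real.one_le_sqrt.mpr ht0
  -- the integer points
  let k : Fin t → ℤ := fun i => round (10000 * s * b i)
  let y : Fin t → ℝ := fun i => (k i : ℝ) / 10000
  let e : Fin t → ℝ := fun i => y i - s * b i
  have hbi : ∀ i, |b i| ≤ 1 := by
    intro i
    have h1 : b i ^ 2 ≤ ∑ j, b j ^ 2 :=
      Finset.single_le_sum (f := fun j => b j ^ 2) (fun j _ => sq_nonneg _) (Finset.mem_univ i)
    rw [hb] at h1
    exact abs_le_one_iff_mul_self_le_one.mpr (by nlinarith)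
  have hr : ∀ i, |(k i : ℝ) - 10000 * s * b i| ≤ 1 / 2 := by
    intro i
    have := abs_sub_round (10000 * s * b i)
    rw [abs_sub_comm]
    exact this
  have he : ∀ i, |e i| ≤ 1 / 20000 := by
    intro i
    have h1 : e i = ((k i : ℝ) - 10000 * s * b i) / 10000 := by
      simp only [e, y]; field_simp
    rw [h1, abs_div, abs_of_pos (by norm_num : (0 : ℝ) < 10000)]
    have := hr i
    linarith
  have he2 : ∀ i, e i ^ 2 ≤ 1 / 400000000 := by
    intro i
    have h1 := he i
    have h2 : e i ^ 2 = |e i| ^ 2 := (sq_abs _).symm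
    rw [h2]
    have h3 : 0 ≤ |e i| := abs_nonneg _
    nlinarith
  have hsum_e : ∑ i, e i ^ 2 ≤ (t : ℝ) / 400000000 := by
    calc ∑ i, e i ^ 2 ≤ ∑ _i : Fin t, (1 / 400000000 : ℝ) := Finset.sum_le_sum fun i _ => he2 i
      _ = (t : ℝ) / 400000000 := by
        simp only [Finset.sum_const, Finset.card_univ, Fintype.card_fin, nsmul_eq_mul]
        ring
  have hCS : (∑ i, e i * b i) ^ 2 ≤ (∑ i, e i ^ 2) * ∑ i, b i ^ 2 :=
    Finset.sum_mul_sq_le_sq_mul_sq _ _ _
  rw [hb, mul_one] at hCS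
  have hcross : |∑ i, e i * b i| ≤ s / 20000 := by
    have h1 : (∑ i, e i * b i) ^ 2 ≤ (s / 20000) ^ 2 := by
      calc (∑ i, e i * b i) ^ 2 ≤ ∑ i, e i ^ 2 := hCS
        _ ≤ (t : ℝ) / 400000000 := hsum_e
        _ = (s / 20000) ^ 2 := by rw [div_pow, hs2]; norm_num
    exact abs_le_of_sq_le_sq h1 (by positivity)
  have hy_eq : ∀ i, y i = s * b i + e i := by
    intro i; simp only [e]; ring
  have hinner : ∑ i, y i * b i = s + ∑ i, e i * b i := by
    have : ∀ i, y i * b i = s * b i ^ 2 + e i * b i := by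
      intro i; rw [hy_eq i]; ring
    simp only [this, Finset.sum_add_distrib, ← Finset.mul_sum, hb, mul_one]
  have hnorm : ∑ i, y i ^ 2 = (t : ℝ) + 2 * s * (∑ i, e i * b i) + ∑ i, e i ^ 2 := by
    have : ∀ i, y i ^ 2 = s ^ 2 * b i ^ 2 + 2 * s * (e i * b i) + e i ^ 2 := by
      intro i; rw [hy_eq i]; ring
    simp only [this, Finset.sum_add_distrib, ← Finset.mul_sum, hb, mul_one, hs2]
  refine ⟨y, ?_, ?_⟩
  · unfold ballGrid4
    refine Finset.mem_filter.mpr ⟨Finset.mem_image.mpr ⟨k, ?_, rfl⟩, ?_⟩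
    · refine Fintype.mem_piFinset.mpr fun i => Finset.mem_Icc.mpr ?_
      have h1 := hr i
      have h2 : |10000 * s * b i| ≤ 10000 * (t : ℝ) := by
        rw [abs_mul, abs_of_nonneg (by positivity : (0 : ℝ) ≤ 10000 * s)]
        have h3 := hbi i
        have h4 : s ≤ (t : ℝ) := by nlinarith
        nlinarith
      have h5 : |(k i : ℝ)| ≤ 10000 * (t : ℝ) + 1 := by
        have : (k i : ℝ) = ((k i : ℝ) - 10000 * s * b i) + 10000 * s * b i := by ring
        rw [this]
        refine le_trans (abs_add_le _ _) ?_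
        linarith
      obtain ⟨h6, h7⟩ := abs_le.mp h5
      constructor
      · have : ((-(10000 * (t : ℤ) + 1) : ℤ) : ℝ) ≤ (k i : ℝ) := by
          push_cast; linarith
        exact_mod_cast this
      · have : (k i : ℝ) ≤ ((10000 * (t : ℤ) + 1 : ℤ) : ℝ) := by
          push_cast; linarith
        exact_mod_cast this
    · rw [hnorm]
      have h1 := (abs_le.mp hcross).2
      have h2 : 2 * s * (∑ i, e i * b i) ≤ 2 * s * (s / 20000) :=
        mul_le_mul_of_nonneg_left h1 (by positivity)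
      have h3 : 2 * s * (s / 20000) = (t : ℝ) / 10000 := by
        have : 2 * s * (s / 20000) = s ^ 2 / 10000 := by ring
        rw [this, hs2]
      nlinarith
  · rw [hinner]
    have h1 := (abs_le.mp hcross).1
    linarith

end Vale.Agent.Lib.P230.WB4
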