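import Vale.Agent.Lib.P230.Ball.WindowBall
import Vale.Agent.Lib.P230.WB4.Band4
import Vale.Agent.Lib.P230.WB4.Grid4

/-!
# P230 ball route: the sharp Gaussian ball window, fine constants: cost `4134/1000`, radius `19997/20000`.
-/

set_option autoImplicit false
set_option linter.unusedSectionVars false
set_option linter.unusedSimpArgs false
set_option linter.unusedVariables false

open MeasureTheory Finset
open scoped ENNReal Matrix

namespace Vale.Agent.Lib.P230.WB4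

open Vale.Agent.Lib.P230.Ball

namespace W4

noncomputable section


def sg : ℝ := 1 / 100000
def aa : ℝ := (10001 / 10000) ^ 2 / 2
def qq : ℝ := sg / Real.sqrt (sg ^ 2 + 10001 / 10000)
def c1 : ℝ := qq * Real.exp (-aa)

lemma exp_half_lt : Real.exp (1 / 2) < 1.64873 := by
  have h1 := Real.exp_one_lt_d9
  have h2 : Real.exp (1 / 2) ^ 2 = Real.exp 1 := by
    rw [← Real.exp_nat_mul]
    norm_num
  have h3 : (0 : ℝ) < Real.exp (1 / 2) := Real.exp_pos _
  by_contra hcon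
  push Not at hcon
  have : (1.64873 : ℝ) ^ 2 ≤ Real.exp (1 / 2) ^ 2 := pow_le_pow_left₀ (by norm_num) hcon 2
  rw [h2] at this
  norm_num at this h1
  linarith

lemma exp_aa_lt : Real.exp aa < 1.6489 := by
  have e : aa = 1 / 2 + (aa - 1 / 2) := by ring
  rw [e, Real.exp_add]
  have h1 := exp_half_lt
  have h2 : Real.exp (aa - 1 / 2) ≤ 1.000101 := by
    have h3 : 1 - (aa - 1 / 2) ≤ Real.exp (-(aa - 1 / 2)) := by
      have := Real.add_one_le_exp (-(aa - 1 / 2))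
      linarith
    have h4 : Real.exp (aa - 1 / 2) = (Real.exp (-(aa - 1 / 2)))⁻¹ := by
      rw [Real.exp_neg, inv_inv]
    rw [h4]
    have h5 : (0 : ℝ) < 1 - (aa - 1 / 2) := by
      unfold aa; norm_num
    calc (Real.exp (-(aa - 1 / 2)))⁻¹ ≤ (1 - (aa - 1 / 2))⁻¹ := inv_anti₀ h5 h3
      _ ≤ 1.000101 := by
        unfold aa; norm_num
  have h6 : 0 < Real.exp (1 / 2) := Real.exp_pos _
  have h7 : 0 < Real.exp (aa - 1 / 2) := Real.exp_pos _
  calc Real.exp (1 / 2) * Real.exp (aa - 1 / 2) ≤ 1.64873 * 1.000101 := by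
        apply mul_le_mul h1.le h2 h7.le (by norm_num)
    _ < 1.6489 := by norm_num

lemma sqrt_s_bounds : Real.sqrt (sg ^ 2 + 10001 / 10000) ≤ 1.00006 ∧ 0 < Real.sqrt (sg ^ 2 + 10001 / 10000) := by
  constructor
  · rw [Real.sqrt_le_left (by norm_num)]
    unfold sg; norm_num
  · apply Real.sqrt_pos.mpr
    unfold sg; norm_num

lemma c1_lower : 1 / 165000 ≤ c1 := by
  obtain ⟨h1, h2⟩ := sqrt_s_bounds
  have h3 := exp_aa_lt
  unfold c1 qq
  rw [Real.exp_neg]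
  have h4 : 0 < Real.exp aa := Real.exp_pos _
  have e : sg / Real.sqrt (sg ^ 2 + 10001 / 10000) * (Real.exp aa)⁻¹ =
      sg / (Real.sqrt (sg ^ 2 + 10001 / 10000) * Real.exp aa) := by
    field_simp
  rw [e, div_le_div_iff₀ (by norm_num) (by positivity)]
  have h5 : Real.sqrt (sg ^ 2 + 10001 / 10000) * Real.exp aa ≤ 1.00006 * 1.6489 :=
    mul_le_mul h1 h3.le h4.le (by norm_num)
  unfold sg at *
  norm_num at *
  linarith

lemma c2_upper : Real.sqrt (2 * Real.pi) * sg / c1 ≤ 4134 / 1000 := by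
  obtain ⟨h1, h2⟩ := sqrt_s_bounds
  have h3 := exp_aa_lt
  have h4 : 0 < Real.exp aa := Real.exp_pos _
  have hsg : 0 < sg := by unfold sg; norm_num
  have h0 : Real.sqrt (2 * Real.pi) ≤ 2.5067 := by
    rw [Real.sqrt_le_left (by norm_num)]
    have := Real.pi_lt_d2
    nlinarith [Real.pi_lt_d4]
  have e : Real.sqrt (2 * Real.pi) * sg / c1 =
      Real.sqrt (2 * Real.pi) * (Real.sqrt (sg ^ 2 + 10001 / 10000) * Real.exp aa) := by
    unfold c1 qq
    rw [Real.exp_neg]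
    field_simp
  rw [e]
  have h5 : Real.sqrt (sg ^ 2 + 10001 / 10000) * Real.exp aa ≤ 1.00006 * 1.6489 :=
    mul_le_mul h1 h3.le h4.le (by norm_num)
  have h6 : 0 ≤ Real.sqrt (sg ^ 2 + 10001 / 10000) * Real.exp aa := by positivity
  calc Real.sqrt (2 * Real.pi) * (Real.sqrt (sg ^ 2 + 10001 / 10000) * Real.exp aa)
      ≤ 2.5067 * (1.00006 * 1.6489) := mul_le_mul h0 h5 h6 (by norm_num)
    _ ≤ 4134 / 1000 := by norm_num


lemma sg_pos : 0 < sg := by unfold sg; norm_num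

lemma c1_pos : 0 < c1 := lt_of_lt_of_le (by norm_num) c1_lower

lemma loc_num {t : ℕ} (ht : 8 ≤ t) :
    Real.exp (-(50 * (t : ℝ))) ≤ (1 / 800000000) * (1 / 165000) ^ t := by
  have h1 : (2.7 : ℝ) ≤ Real.exp 1 := by
    have := Real.exp_one_gt_d9
    norm_num at this ⊢
    linarith
  have h2 : (10 ^ 20 : ℝ) ≤ Real.exp 50 := by
    have h3 : Real.exp 48 = Real.exp 1 ^ 48 := by
      rw [← Real.exp_nat_mul]
      norm_num
    have h4 : Real.exp 48 ≤ Real.exp 50 := Real.exp_le_exp.mpr (by norm_num)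
    have h5 : (2.7 : ℝ) ^ 48 ≤ Real.exp 1 ^ 48 := pow_le_pow_left₀ (by norm_num) h1 48
    norm_num at h5 ⊢
    linarith
  have e : Real.exp (-(50 * (t : ℝ))) = (Real.exp (-50)) ^ t := by
    rw [← Real.exp_nat_mul]
    congr 1
    ring
  rw [e]
  have h6 : Real.exp (-50) ≤ (1 / 10 ^ 20) := by
    rw [Real.exp_neg, inv_eq_one_div]
    apply one_div_le_one_div_of_le (by norm_num) h2
  have h7 : Real.exp (-50) ^ t ≤ (1 / 10 ^ 20 : ℝ) ^ t :=
    pow_le_pow_left₀ (Real.exp_pos _).le h6 t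
  refine h7.trans ?_
  have e2 : (1 / 10 ^ 20 : ℝ) ≤ (1 / 18) * (1 / 165000) := by norm_num
  have h8 : (1 / 10 ^ 20 : ℝ) ^ t ≤ ((1 / 18) * (1 / 165000)) ^ t :=
    pow_le_pow_left₀ (by norm_num) e2 t
  refine h8.trans ?_
  rw [mul_pow]
  have h9 : (1 / 18 : ℝ) ^ t ≤ (1 / 18 : ℝ) ^ 8 :=
    pow_le_pow_of_le_one (by norm_num) (by norm_num) ht
  have h10 : (0 : ℝ) ≤ (1 / 165000) ^ t := by positivity
  have h11 : (1 / 18 : ℝ) ^ 8 ≤ 1 / 800000000 := by norm_num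
  exact mul_le_mul_of_nonneg_right (h9.trans h11) h10

/-- Lower bound of the mean on a band. -/
lemma bumpMean_lower {n t : ℕ} (P : Measure (Fin n → ℝ)) [IsProbabilityMeasure P] (κ : ℝ) (y : Fin t → ℝ)
    (hy : ∑ i, y i ^ 2 ≤ (10001 / 10000) ^ 2 * (t : ℝ))
    (hband : ∀ᵐ x ∂P, 1 ≤ κ ^ 2 * ∑ j, x j ^ 2 ∧ κ ^ 2 * ∑ j, x j ^ 2 ≤ 10001 / 10000) :
    c1 ^ t ≤ bumpMean P κ sg y := by
  unfold bumpMean
  set f : (Fin n → ℝ) → ℝ := fun x => (sg / Real.sqrt (sg ^ 2 + κ ^ 2 * ∑ j, x j ^ 2)) ^ t *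
    Real.exp (-(∑ i, y i ^ 2) / (2 * (sg ^ 2 + κ ^ 2 * ∑ j, x j ^ 2))) with hf
  have hsg := sg_pos
  have hsum0 : ∀ x : Fin n → ℝ, 0 ≤ κ ^ 2 * ∑ j, x j ^ 2 := fun x =>
    mul_nonneg (sq_nonneg _) (Finset.sum_nonneg fun j _ => sq_nonneg _)
  have hmeas : Measurable f := by
    have h1 : Measurable fun x : Fin n → ℝ => κ ^ 2 * ∑ j, x j ^ 2 := by fun_prop
    have h2 : Measurable fun x : Fin n → ℝ => sg ^ 2 + κ ^ 2 * ∑ j, x j ^ 2 := measurable_const.add h1
    have h3 : Measurable fun x : Fin n → ℝ => Real.sqrt (sg ^ 2 + κ ^ 2 * ∑ j, x j ^ 2) :=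
      h2.sqrt
    have h4 : Measurable fun x : Fin n → ℝ => (sg / Real.sqrt (sg ^ 2 + κ ^ 2 * ∑ j, x j ^ 2)) ^ t :=
      (measurable_const.div h3).pow_const t
    have h5 : Measurable fun x : Fin n → ℝ =>
        Real.exp (-(∑ i, y i ^ 2) / (2 * (sg ^ 2 + κ ^ 2 * ∑ j, x j ^ 2))) :=
      Real.measurable_exp.comp (measurable_const.div (measurable_const.mul h2))
    exact h4.mul h5
  have hbd : ∀ x, ‖f x‖ ≤ 1 := by
    intro x
    have h0 := hsum0 x
    have hs : 0 < sg ^ 2 + κ ^ 2 * ∑ j, x j ^ 2 := by positivity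
    have hsq : 0 < Real.sqrt (sg ^ 2 + κ ^ 2 * ∑ j, x j ^ 2) := Real.sqrt_pos.mpr hs
    have hle : sg ≤ Real.sqrt (sg ^ 2 + κ ^ 2 * ∑ j, x j ^ 2) := by
      apply Real.le_sqrt_of_sq_le
      linarith
    have h1 : sg / Real.sqrt (sg ^ 2 + κ ^ 2 * ∑ j, x j ^ 2) ≤ 1 := (div_le_one hsq).mpr hle
    have h2 : 0 ≤ sg / Real.sqrt (sg ^ 2 + κ ^ 2 * ∑ j, x j ^ 2) := by positivity
    have h3 : (sg / Real.sqrt (sg ^ 2 + κ ^ 2 * ∑ j, x j ^ 2)) ^ t ≤ 1 := pow_le_one₀ h2 h1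
    have h4 : Real.exp (-(∑ i, y i ^ 2) / (2 * (sg ^ 2 + κ ^ 2 * ∑ j, x j ^ 2))) ≤ 1 := by
      apply Real.exp_le_one_iff.mpr
      apply div_nonpos_of_nonpos_of_nonneg
      · have : 0 ≤ ∑ i, y i ^ 2 := Finset.sum_nonneg fun i _ => sq_nonneg _
        linarith
      · positivity
    rw [Real.norm_eq_abs, abs_of_nonneg (by simp only [hf]; positivity)]
    simp only [hf]
    exact mul_le_one₀ h3 (Real.exp_pos _).le h4
  have hint : Integrable f P := Integrable.of_bound hmeas.aestronglyMeasurable 1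
    (Filter.Eventually.of_forall hbd)
  have hlow : ∀ᵐ x ∂P, c1 ^ t ≤ f x := by
    filter_upwards [hband] with x hx
    obtain ⟨hx1, hx2⟩ := hx
    set v : ℝ := κ ^ 2 * ∑ j, x j ^ 2 with hv
    have hs : 0 < sg ^ 2 + v := by positivity
    have hle : Real.sqrt (sg ^ 2 + v) ≤ Real.sqrt (sg ^ 2 + 10001 / 10000) := Real.sqrt_le_sqrt (by linarith)
    have hq : qq ≤ sg / Real.sqrt (sg ^ 2 + v) := by
      unfold qq
      apply div_le_div_of_nonneg_left hsg.le (Real.sqrt_pos.mpr hs) hle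
    have hq0 : 0 ≤ qq := by
      unfold qq
      positivity
    have h1 : qq ^ t ≤ (sg / Real.sqrt (sg ^ 2 + v)) ^ t := pow_le_pow_left₀ hq0 hq t
    have h2 : Real.exp (-aa) ^ t ≤ Real.exp (-(∑ i, y i ^ 2) / (2 * (sg ^ 2 + v))) := by
      rw [← Real.exp_nat_mul]
      apply Real.exp_le_exp.mpr
      have hy0 : 0 ≤ ∑ i, y i ^ 2 := Finset.sum_nonneg fun i _ => sq_nonneg _
      have h3 : (1 : ℝ) ≤ sg ^ 2 + v := by nlinarith [sq_nonneg sg]
      have h4 : (∑ i, y i ^ 2) / (2 * (sg ^ 2 + v)) ≤ (∑ i, y i ^ 2) / 2 := by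
        apply div_le_div_of_nonneg_left hy0 (by norm_num)
        linarith
      have h5 : -(∑ i, y i ^ 2) / (2 * (sg ^ 2 + v)) = -((∑ i, y i ^ 2) / (2 * (sg ^ 2 + v))) := by
        ring
      rw [h5]
      unfold aa
      have h6 : (∑ i, y i ^ 2) / 2 ≤ ((10001 / 10000) ^ 2 * (t : ℝ)) / 2 := by linarith
      have h7 : (t : ℝ) * -((10001 / 10000 : ℝ) ^ 2 / 2) = -(((10001 / 10000) ^ 2 * (t : ℝ)) / 2) := by ring
      rw [h7]
      linarith
    simp only [hf]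
    unfold c1
    rw [mul_pow]
    exact mul_le_mul h1 h2 (by positivity) (by positivity)
  have hconst : ∫ _x, c1 ^ t ∂P = c1 ^ t := by simp
  rw [← hconst]
  exact integral_mono_ae (integrable_const _) hint hlow

/-- A point far from the centre has small bump. -/
lemma bump_far {t : ℕ} (y u : Fin t → ℝ) (r : ℝ) (hr : r ≤ ∑ i, (u i - y i) ^ 2) :
    bump sg y u ≤ Real.exp (-r / (2 * sg ^ 2)) := by
  unfold bump
  apply Real.exp_le_exp.mpr
  have hsg := sg_pos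
  apply div_le_div_of_nonneg_right _ (by positivity)
  linarith

lemma bump_nonneg {t : ℕ} (σ : ℝ) (y u : Fin t → ℝ) : 0 ≤ bump σ y u := (Real.exp_pos _).le

lemma bump_le_one {t : ℕ} (y u : Fin t → ℝ) : bump sg y u ≤ 1 := by
  unfold bump
  apply Real.exp_le_one_iff.mpr
  have hsg := sg_pos
  apply div_nonpos_of_nonpos_of_nonneg
  · have : 0 ≤ ∑ i, (u i - y i) ^ 2 := Finset.sum_nonneg fun i _ => sq_nonneg _
    linarith
  · positivity

lemma bump_meas {t : ℕ} (σ : ℝ) (y : Fin t → ℝ) : Measurable (bump σ y) := by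
  unfold bump
  fun_prop

/-- Cauchy-Schwarz in the form used here. -/
lemma cs_unit {t : ℕ} (a b : Fin t → ℝ) (hb : ∑ i, b i ^ 2 = 1) :
    (∑ i, a i * b i) ^ 2 ≤ ∑ i, a i ^ 2 := by
  have := Finset.sum_mul_sq_le_sq_mul_sq Finset.univ a b
  rw [hb, mul_one] at this
  exact this

end

end W4

open W4 in
/-- The numerics of the deviation. -/
lemma dev_bound4 {t : ℕ} (ht : 8 ≤ t) (nR ϱ κ : ℝ) (hnR : 0 < nR) (hϱ : 1 / 122 ≤ ϱ) (hκ0 : 0 < κ)
    (hκ2 : κ ^ 2 = 1 / (nR * ϱ))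
    (hnum : 420000000 * (t : ℝ) * ((20000 * (t : ℝ) + 3) * 165000) ^ t ≤ Real.sqrt (Real.sqrt nR)) :
    ((ballGrid4 t).card : ℝ) * ((κ / sg) * Real.sqrt t * Real.sqrt (Real.sqrt (1000000000 / 9 * 10 * nR)))
      ≤ c1 ^ t / 2 := by
  have hϱ0 : 0 < ϱ := lt_of_lt_of_le (by norm_num) hϱ
  have ht0 : (0 : ℝ) < t := by
    have : 0 < t := by omega
    exact_mod_cast this
  have ht1 : (1 : ℝ) ≤ t := by
    have : 1 ≤ t := by omega
    exact_mod_cast this
  set s : ℝ := Real.sqrt (Real.sqrt nR) with hs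
  have hs0 : 0 < s := Real.sqrt_pos.mpr (Real.sqrt_pos.mpr hnR)
  have hs2 : s ^ 2 = Real.sqrt nR := Real.sq_sqrt (Real.sqrt_pos.mpr hnR).le
  have hs4 : s ^ 4 = nR := by
    have : s ^ 4 = (s ^ 2) ^ 2 := by ring
    rw [this, hs2, Real.sq_sqrt hnR.le]
  have hκs : κ * s ^ 2 ≤ 11.05 := by
    have h0 : (κ * s ^ 2) ^ 2 ≤ (11.05 : ℝ) ^ 2 := by
      have e : (κ * s ^ 2) ^ 2 = κ ^ 2 * s ^ 4 := by ring
      rw [e, hκ2, hs4]
      have e2 : 1 / (nR * ϱ) * nR = 1 / ϱ := by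
        field_simp
      rw [e2, div_le_iff₀ hϱ0]
      nlinarith
    exact (pow_le_pow_iff_left₀ (by positivity) (by norm_num) (by norm_num)).mp h0
  have hroot : Real.sqrt (Real.sqrt (1000000000 / 9 * 10 * nR)) ≤ 183 * s := by
    have h1 : Real.sqrt (1000000000 / 9 * 10 * nR) ≤ 33334 * s ^ 2 := by
      rw [Real.sqrt_le_left (by positivity)]
      have : (33334 * s ^ 2) ^ 2 = 1111155556 * s ^ 4 := by ring
      rw [this, hs4]
      nlinarith
    rw [Real.sqrt_le_left (by positivity)]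
    nlinarith
  have hdev : (κ / sg) * Real.sqrt t * Real.sqrt (Real.sqrt (1000000000 / 9 * 10 * nR)) ≤ 202220000 * (t : ℝ) / s := by
    have hsqt : Real.sqrt t ≤ t := by
      rw [Real.sqrt_le_left ht0.le]
      nlinarith
    have hsqt0 : 0 ≤ Real.sqrt (t : ℝ) := Real.sqrt_nonneg _
    have h0 : 0 ≤ Real.sqrt (Real.sqrt (1000000000 / 9 * 10 * nR)) := Real.sqrt_nonneg _
    have e : κ / sg = 100000 * κ := by
      unfold sg
      field_simp
    rw [e, le_div_iff₀ hs0]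
    have h1 : κ * (183 * s) * s ≤ 2022.15 := by
      have : κ * (183 * s) * s = 183 * (κ * s ^ 2) := by ring
      rw [this]
      linarith
    have h2 : κ * Real.sqrt (Real.sqrt (1000000000 / 9 * 10 * nR)) * s ≤ 2022.15 := by
      refine le_trans ?_ h1
      apply mul_le_mul_of_nonneg_right _ hs0.le
      exact mul_le_mul_of_nonneg_left hroot hκ0.le
    have h3 : 0 ≤ κ * Real.sqrt (Real.sqrt (1000000000 / 9 * 10 * nR)) * s := by positivity
    calc 100000 * κ * Real.sqrt t * Real.sqrt (Real.sqrt (1000000000 / 9 * 10 * nR)) * s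
        = 100000 * Real.sqrt t * (κ * Real.sqrt (Real.sqrt (1000000000 / 9 * 10 * nR)) * s) := by ring
      _ ≤ 100000 * (t : ℝ) * 2022.2 := by
          apply mul_le_mul (by linarith) (by linarith) h3 (by positivity)
      _ = _ := by ring
  have hcard := ballGrid4_card t
  have hc1t : (1 / 165000 : ℝ) ^ t ≤ c1 ^ t := pow_le_pow_left₀ (by norm_num) c1_lower t
  have hc1t0 : 0 < c1 ^ t := pow_pos c1_pos t
  show ((ballGrid4 t).card : ℝ) * ((κ / sg) * Real.sqrt t * Real.sqrt (Real.sqrt (1000000000 / 9 * 10 * nR)))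
      ≤ c1 ^ t / 2
  · 
    have h0 : (0 : ℝ) ≤ (20000 * (t : ℝ) + 3) ^ t := by positivity
    have h1 : ((ballGrid4 t).card : ℝ) * ((κ / sg) * Real.sqrt t * Real.sqrt (Real.sqrt (1000000000 / 9 * 10 * nR)))
        ≤ (20000 * (t : ℝ) + 3) ^ t * (202220000 * (t : ℝ) / s) := by
      apply mul_le_mul hcard hdev _ h0
      have : 0 ≤ κ / sg := by
        have := sg_pos
        positivity
      positivity
    refine h1.trans ?_
    have h2 : (20000 * (t : ℝ) + 3) ^ t * (202220000 * (t : ℝ) / s) ≤ (1 / 165000 : ℝ) ^ t / 2 := by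
      rw [mul_div_assoc', div_le_iff₀ hs0]
      have h3 : ((20000 * (t : ℝ) + 3) * 165000) ^ t = (20000 * (t : ℝ) + 3) ^ t * 165000 ^ t := mul_pow _ _ _
      have h4 : (1 / 165000 : ℝ) ^ t * 165000 ^ t = 1 := by
        rw [← mul_pow]
        norm_num
      have h5 : (0 : ℝ) < 165000 ^ t := by positivity
      rw [h3] at hnum
      have h6 : (20000 * (t : ℝ) + 3) ^ t * (202220000 * (t : ℝ)) * 165000 ^ t ≤ s / 2 := by
        have h7 : 0 ≤ (t : ℝ) * ((20000 * (t : ℝ) + 3) ^ t * 165000 ^ t) := by positivity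
        nlinarith
      have h8 : (20000 * (t : ℝ) + 3) ^ t * (202220000 * (t : ℝ)) ≤ ((1 / 165000 : ℝ) ^ t) * (s / 2) := by
        calc (20000 * (t : ℝ) + 3) ^ t * (202220000 * (t : ℝ))
            = ((20000 * (t : ℝ) + 3) ^ t * (202220000 * (t : ℝ)) * 165000 ^ t) * (1 / 165000 : ℝ) ^ t := by
              rw [mul_assoc _ ((165000 : ℝ) ^ t), mul_comm ((165000 : ℝ) ^ t), h4, mul_one]
          _ ≤ (s / 2) * (1 / 165000 : ℝ) ^ t := by
              apply mul_le_mul_of_nonneg_right h6 (by positivity)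
          _ = _ := by ring
      calc (20000 * (t : ℝ) + 3) ^ t * (202220000 * (t : ℝ)) ≤ ((1 / 165000 : ℝ) ^ t) * (s / 2) := h8
        _ = _ := by ring
    linarith

open W4 in
/-- Independence of the frame from the bump lower bounds. -/
lemma frame_LI4 {t n : ℕ} (ht : 8 ≤ t) (P : Measure (Fin n → ℝ)) [IsProbabilityMeasure P]
    (θ : Fin t → Fin n → ℝ)
    (hbumpP : ∀ y ∈ ballGrid4 t, c1 ^ t / 2 ≤ ∫ x, bump sg y (fun i => θ i ⬝ᵥ x) ∂P) :
    LinearIndependent ℝ θ := by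
  have ht0 : (0 : ℝ) < t := by
    have : 0 < t := by omega
    exact_mod_cast this
  have hc1t : (1 / 165000 : ℝ) ^ t ≤ c1 ^ t := pow_le_pow_left₀ (by norm_num) c1_lower t
  have hlocn := loc_num ht
  rw [Fintype.linearIndependent_iff]
  intro g hg i
  by_contra hgi
  have hsg : 0 < ∑ i, g i ^ 2 :=
    Finset.sum_pos' (fun j _ => sq_nonneg _) ⟨i, Finset.mem_univ _, by positivity⟩
  set c : ℝ := (Real.sqrt (∑ i, g i ^ 2))⁻¹ with hc'
  have hc2 : c ^ 2 = (∑ i, g i ^ 2)⁻¹ := by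
    rw [hc', inv_pow, Real.sq_sqrt hsg.le]
  set b : Fin t → ℝ := fun j => c * g j with hb
  have hbunit : ∑ i, b i ^ 2 = 1 := by
    simp only [hb, mul_pow]
    rw [← Finset.mul_sum, hc2]
    exact inv_mul_cancel₀ hsg.ne'
  obtain ⟨y, hyY, hy⟩ := ballGrid4_dir (by omega) b hbunit
  have hzero : ∀ x : Fin n → ℝ, ∑ j, (θ j ⬝ᵥ x) * b j = 0 := by
    intro x
    have h4 : (∑ j, g j • θ j) ⬝ᵥ x = ∑ j, g j * (θ j ⬝ᵥ x) := by
      simp only [dotProduct, Finset.sum_apply, Pi.smul_apply, smul_eq_mul, Finset.sum_mul,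
        Finset.mul_sum]
      rw [Finset.sum_comm]
      simp only [mul_assoc]
    rw [hg] at h4
    simp only [zero_dotProduct] at h4
    have h5 : ∑ j, (θ j ⬝ᵥ x) * b j = c * ∑ j, g j * (θ j ⬝ᵥ x) := by
      rw [Finset.mul_sum]
      apply Finset.sum_congr rfl
      intro j _
      simp only [hb]
      ring
    rw [h5, ← h4, mul_zero]
  have hfar : ∀ x : Fin n → ℝ, bump sg y (fun i => θ i ⬝ᵥ x) ≤ Real.exp (-(50 * (t : ℝ))) := by
    intro x
    have h1 := W4.cs_unit (fun i => (θ i ⬝ᵥ x) - y i) b hbunit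
    have h2 : ∑ i, ((θ i ⬝ᵥ x) - y i) * b i = - ∑ i, y i * b i := by
      simp only [sub_mul]
      rw [Finset.sum_sub_distrib, hzero x, zero_sub]
    rw [h2, neg_sq] at h1
    have h3 : ((19999 / 20000) * Real.sqrt t) ^ 2 ≤ (∑ i, y i * b i) ^ 2 :=
      pow_le_pow_left₀ (by positivity) hy 2
    rw [mul_pow, Real.sq_sqrt ht0.le] at h3
    have h4 : bump sg y (fun i => θ i ⬝ᵥ x) ≤
        Real.exp (-((19999 / 20000) ^ 2 * (t : ℝ)) / (2 * sg ^ 2)) :=
      bump_far y _ _ (h3.trans h1)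
    refine h4.trans (Real.exp_le_exp.mpr ?_)
    unfold sg
    have : (0 : ℝ) ≤ t := ht0.le
    norm_num
    nlinarith
  have hy0 := hbumpP y hyY
  have hle : ∫ x, bump sg y (fun i => θ i ⬝ᵥ x) ∂P ≤ Real.exp (-(50 * (t : ℝ))) := by
    have hconst : ∫ _x, Real.exp (-(50 * (t : ℝ))) ∂P = Real.exp (-(50 * (t : ℝ))) := by simp
    rw [← hconst]
    apply integral_mono_of_nonneg
    · exact Filter.Eventually.of_forall fun x => W4.bump_nonneg _ _ _
    · exact integrable_const _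
    · exact Filter.Eventually.of_forall hfar
  have h6 : (1 / 165000 : ℝ) ^ t > 0 := by positivity
  nlinarith

open W4 in
/-- The frame and the band. -/
theorem frame_band4 {t d : ℕ} (ht : 8 ≤ t) (K₀ : Set (Fin (d + t) → ℝ))
    (hK : IsCompact K₀) (hvol : 0 < volume K₀)
    (hrad : ∀ x ∈ K₀, ∑ j, x j ^ 2 ≤ 10 * ((d + t : ℕ) : ℝ))
    (hiso : ∀ a : Fin (d + t) → ℝ,
      ∫ x in K₀, (a ⬝ᵥ x) ^ 2 ≤ (10 / 9) * (∑ j, a j ^ 2) * (volume K₀).toReal)
    (hmean : (((d + t : ℕ) : ℝ) / 61) * (volume K₀).toReal ≤ ∫ x in K₀, ∑ j, x j ^ 2)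
    (hnum : 420000000 * (t : ℝ) * ((20000 * (t : ℝ) + 3) * 165000) ^ t ≤
      Real.sqrt (Real.sqrt ((d + t : ℕ) : ℝ))) :
    ∃ (K₁ : Set (Fin (d + t) → ℝ)) (θ : Fin t → Fin (d + t) → ℝ), K₁ ⊆ K₀ ∧ IsCompact K₁ ∧
      (1 / 100000000 : ℝ) * (volume K₀).toReal ≤ (volume K₁).toReal ∧ LinearIndependent ℝ θ ∧
      ∀ y ∈ ballGrid4 t, (c1 ^ t / 2) * (volume K₁).toReal ≤
        ∫ x in K₁, bump sg y (fun i => θ i ⬝ᵥ x) := by
  classical
  have hn : 0 < d + t := by omega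
  have hnR : (0 : ℝ) < ((d + t : ℕ) : ℝ) := by exact_mod_cast hn
  set nR : ℝ := ((d + t : ℕ) : ℝ) with hnRdef
  have ht0 : (0 : ℝ) < t := by
    have : 0 < t := by omega
    exact_mod_cast this
  have ht1 : (1 : ℝ) ≤ t := by
    have : 1 ≤ t := by omega
    exact_mod_cast this
  have hfin0 : volume K₀ ≠ ⊤ := hK.measure_lt_top.ne
  have hne0 : volume K₀ ≠ 0 := hvol.ne'
  set v₀ : ℝ := (volume K₀).toReal with hv₀
  have hv₀0 : 0 < v₀ := ENNReal.toReal_pos hne0 hfin0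
  -- the band
  obtain ⟨ϱ, hϱ, hbandvol⟩ := band_exists4 hn K₀ hK hvol hrad hmean
  have hϱ0 : 0 < ϱ := lt_of_lt_of_le (by norm_num) hϱ
  set K₁ : Set (Fin (d + t) → ℝ) :=
    K₀ ∩ {x | ϱ * ((d + t : ℕ) : ℝ) ≤ ∑ j, x j ^ 2 ∧ ∑ j, x j ^ 2 ≤ (10001 / 10000) * ϱ * ((d + t : ℕ) : ℝ)} with hK₁
  have hK₁K : IsCompact K₁ := by
    apply hK.inter_right
    have h1 : Continuous fun x : Fin (d + t) → ℝ => ∑ j, x j ^ 2 := by fun_prop
    exact (isClosed_le continuous_const h1).inter (isClosed_le h1 continuous_const)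
  have hK₁sub : K₁ ⊆ K₀ := Set.inter_subset_left
  have hfin1 : volume K₁ ≠ ⊤ := hK₁K.measure_lt_top.ne
  set v₁ : ℝ := (volume K₁).toReal with hv₁
  have hv₁0 : 0 < v₁ := lt_of_lt_of_le (by positivity) hbandvol
  have hne1 : volume K₁ ≠ 0 := by
    intro h0
    rw [hv₁, h0] at hv₁0
    simp at hv₁0
  -- the measure on the band
  set P : Measure (Fin (d + t) → ℝ) := (volume K₁)⁻¹ • volume.restrict K₁ with hP
  have hPprob : IsProbabilityMeasure P := by
    constructor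
    simp only [hP, Measure.smul_apply, Measure.restrict_apply MeasurableSet.univ, Set.univ_inter,
      smul_eq_mul]
    exact ENNReal.inv_mul_cancel hne1 hfin1
  have hint : ∀ f : (Fin (d + t) → ℝ) → ℝ, ∫ x, f x ∂P = v₁⁻¹ * ∫ x in K₁, f x := by
    intro f
    rw [hP, integral_smul_measure, ENNReal.toReal_inv, smul_eq_mul]
  have hsupp : ∀ᵐ x ∂P, ∑ j, x j ^ 2 ≤ 10 * nR := by
    have h1 : ∀ᵐ x ∂(volume.restrict K₁), ∑ j, x j ^ 2 ≤ 10 * nR :=
      ae_restrict_of_forall_mem hK₁K.measurableSet fun x hx => hrad x (hK₁sub hx)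
    exact Measure.ae_smul_measure h1 _
  -- the scale
  set κ : ℝ := Real.sqrt (1 / (nR * ϱ)) with hκdef
  have hκ0 : 0 < κ := Real.sqrt_pos.mpr (by positivity)
  have hκ2 : κ ^ 2 = 1 / (nR * ϱ) := Real.sq_sqrt (by positivity)
  have hbandae : ∀ᵐ x ∂P, 1 ≤ κ ^ 2 * ∑ j, x j ^ 2 ∧ κ ^ 2 * ∑ j, x j ^ 2 ≤ 10001 / 10000 := by
    have h1 : ∀ᵐ x ∂(volume.restrict K₁), 1 ≤ κ ^ 2 * ∑ j, x j ^ 2 ∧ κ ^ 2 * ∑ j, x j ^ 2 ≤ 10001 / 10000 := by
      refine ae_restrict_of_forall_mem hK₁K.measurableSet fun x hx => ?_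
      obtain ⟨h2, h3⟩ := hx.2
      have hp : 0 < nR * ϱ := by positivity
      have e : κ ^ 2 * ∑ j, x j ^ 2 = (∑ j, x j ^ 2) / (nR * ϱ) := by
        rw [hκ2]
        ring
      rw [e]
      constructor
      · rw [le_div_iff₀ hp]
        have : nR * ϱ = ϱ * nR := mul_comm _ _
        linarith
      · rw [div_le_iff₀ hp]
        nlinarith
    exact Measure.ae_smul_measure h1 _
  -- isotropy on the band
  have hiso' : ∀ a : Fin (d + t) → ℝ, ∫ x, (a ⬝ᵥ x) ^ 2 ∂P ≤ (1000000000 / 9) * ∑ j, a j ^ 2 := by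
    intro a
    rw [hint, inv_mul_le_iff₀ hv₁0]
    have hcontA : Continuous fun x : Fin (d + t) → ℝ => (a ⬝ᵥ x) ^ 2 :=
      (Continuous.dotProduct continuous_const continuous_id).pow 2
    have h1 : ∫ x in K₁, (a ⬝ᵥ x) ^ 2 ≤ ∫ x in K₀, (a ⬝ᵥ x) ^ 2 := by
      apply setIntegral_mono_set (hcontA.continuousOn.integrableOn_compact hK)
      · exact Filter.Eventually.of_forall fun x => sq_nonneg _
      · exact hK₁sub.eventuallyLE
    have h2 := hiso a
    have hs : 0 ≤ ∑ j, a j ^ 2 := Finset.sum_nonneg fun j _ => sq_nonneg _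
    have h3 : (∑ j, a j ^ 2) * v₀ ≤ (∑ j, a j ^ 2) * (100000000 * v₁) := by
      apply mul_le_mul_of_nonneg_left _ hs
      linarith
    nlinarith
  -- the frame
  obtain ⟨θ, hθ⟩ := gaussian_bump hn (by omega) P 10 (1000000000 / 9) (by norm_num) (by norm_num) hsupp hiso'
    κ sg hκ0 sg_pos (ballGrid4 t)
  have hYdev := dev_bound4 ht nR ϱ κ hnR hϱ hκ0 hκ2 hnum
  -- the bump lower bound under `P`
  have hbumpP : ∀ y ∈ ballGrid4 t, c1 ^ t / 2 ≤ ∫ x, bump sg y (fun i => θ i ⬝ᵥ x) ∂P := by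
    intro y hy
    have h1 := hθ y hy
    have hyn : ∑ i, y i ^ 2 ≤ (10001 / 10000) ^ 2 * (t : ℝ) := by
      unfold ballGrid4 at hy
      exact (Finset.mem_filter.mp hy).2
    have h2 := bumpMean_lower P κ y hyn hbandae
    linarith
  have hlocn := loc_num ht
  have hθLI : LinearIndependent ℝ θ := frame_LI4 ht P θ hbumpP
  refine ⟨K₁, θ, hK₁sub, hK₁K, hbandvol, hθLI, ?_⟩
  intro y hy
  have h2 := hbumpP y hy
  rw [hint, le_inv_mul_iff₀ hv₁0] at h2
  linarith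

open W4 in
/-- The sharp Gaussian ball window, fine constants. -/
theorem window_ball4 {t d : ℕ} (ht : 8 ≤ t) (K₀ : Set (Fin (d + t) → ℝ)) (hc : Convex ℝ K₀)
    (hK : IsCompact K₀) (hvol : 0 < volume K₀)
    (hrad : ∀ x ∈ K₀, ∑ j, x j ^ 2 ≤ 10 * ((d + t : ℕ) : ℝ))
    (hiso : ∀ a : Fin (d + t) → ℝ,
      ∫ x in K₀, (a ⬝ᵥ x) ^ 2 ≤ (10 / 9) * (∑ j, a j ^ 2) * (volume K₀).toReal)
    (hmean : (((d + t : ℕ) : ℝ) / 61) * (volume K₀).toReal ≤ ∫ x in K₀, ∑ j, x j ^ 2)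
    (hnum : 420000000 * (t : ℝ) * ((20000 * (t : ℝ) + 3) * 165000) ^ t ≤
      Real.sqrt (Real.sqrt ((d + t : ℕ) : ℝ))) :
    ∃ (E : Matrix (Fin (d + t)) (Fin (d + t)) ℝ) (V₀ : ℝ), E.det ≠ 0 ∧ 0 < V₀ ∧
      (∀ z : Fin t → ℝ, ∑ i, z i ^ 2 ≤ (19997 / 20000) ^ 2 * (t : ℝ) →
        V₀ ≤ secVol (splitMap d t '' (E.mulVec '' K₀)) z) ∧
      (volume (splitMap d t '' (E.mulVec '' K₀))).toReal ≤ 800000000 * (4134 / 1000) ^ t * V₀ := by
  classical
  obtain ⟨K₁, θ, hK₁sub, hK₁K, hbandvol, hθLI, hbumpK⟩ :=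
    frame_band4 ht K₀ hK hvol hrad hiso hmean hnum
  have ht0 : (0 : ℝ) < t := by
    have : 0 < t := by omega
    exact_mod_cast this
  have hfin0 : volume K₀ ≠ ⊤ := hK.measure_lt_top.ne
  have hne0 : volume K₀ ≠ 0 := hvol.ne'
  set v₀ : ℝ := (volume K₀).toReal with hv₀
  have hv₀0 : 0 < v₀ := ENNReal.toReal_pos hne0 hfin0
  set v₁ : ℝ := (volume K₁).toReal with hv₁
  have hv₁0 : 0 < v₁ := lt_of_lt_of_le (by positivity) hbandvol
  have hc1t : (1 / 165000 : ℝ) ^ t ≤ c1 ^ t := pow_le_pow_left₀ (by norm_num) c1_lower t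
  have hc1t0 : 0 < c1 ^ t := pow_pos c1_pos t
  have hlocn := loc_num ht
  obtain ⟨E, hE, hErow⟩ := extend_frame θ hθLI
  refine ⟨E, ?_⟩
  set Kst : Set (Fin (d + t) → ℝ) := E.mulVec '' K₀ with hKst
  set K₂ : Set ((Fin d → ℝ) × (Fin t → ℝ)) := splitMap d t '' Kst with hK₂
  have hKstc : Convex ℝ Kst := hc.is_linear_image (mulVec_isLinear E)
  have hKstK : IsCompact Kst := hK.image (mulVec_continuous E)
  have hK₂c : Convex ℝ K₂ := hKstc.is_linear_image splitMap_isLinear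
  have hK₂K : IsCompact K₂ := hKstK.image splitMap_continuous
  obtain ⟨h0, hm, hbd, hsb, hl, hv₂⟩ := section_props K₂ hK₂c hK₂K
  have hbr := bridge E hE K₀ hK hm h0
  have hdet : 0 < |E.det| := abs_pos.mpr hE
  have hvK : (volume K₂).toReal = |E.det| * v₀ := by
    have h1 := hbr (fun _ => 1) measurable_const (fun _ => zero_le_one)
    rw [hv₂, ← integral_eq_lintegral_of_nonneg_ae (Filter.Eventually.of_forall h0)
      hm.aestronglyMeasurable]
    simp only [one_mul] at h1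
    rw [h1]
    simp [hv₀, Measure.real]
  set V : ℝ := (volume K₂).toReal with hV
  have hV0 : 0 < V := by
    rw [hvK]
    positivity
  have hVint : ∫ z, secVol K₂ z = V := by
    rw [hV, hv₂, ← integral_eq_lintegral_of_nonneg_ae (Filter.Eventually.of_forall h0)
      hm.aestronglyMeasurable]
  have hAint : Integrable (secVol K₂) := by
    refine ⟨hm.aestronglyMeasurable, ?_⟩
    rw [hasFiniteIntegral_iff_ofReal (Filter.Eventually.of_forall h0), ← hv₂]
    exact hK₂K.measure_lt_top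
  -- the constants of the window
  set m : ℝ := c1 ^ t / 200000000 with hmdef
  have hm0 : 0 < m := by positivity
  set R : ℝ := Real.sqrt t / 10000 with hRdef
  have hR0 : 0 ≤ R := by positivity
  have hR2 : R ^ 2 = (t : ℝ) / 100000000 := by
    rw [hRdef, div_pow, Real.sq_sqrt ht0.le]
    norm_num
  have hRloc : Real.exp (-(R ^ 2) / (2 * sg ^ 2)) ≤ m / 4 := by
    have e : -(R ^ 2) / (2 * sg ^ 2) = -(50 * (t : ℝ)) := by
      rw [hR2]
      unfold sg
      ring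
    rw [e]
    refine hlocn.trans ?_
    rw [hmdef]
    have : (1 / 800000000 : ℝ) * (1 / 165000) ^ t ≤ (1 / 800000000 : ℝ) * c1 ^ t :=
      mul_le_mul_of_nonneg_left hc1t (by norm_num)
    linarith
  -- the point near each centre
  have hpt : ∀ y ∈ ballGrid4 t, ∃ u : Fin t → ℝ, ∑ i, (u i - y i) ^ 2 ≤ R ^ 2 ∧
      (m / 4) * V / (Real.sqrt (2 * Real.pi) * sg) ^ t ≤ secVol K₂ u := by
    intro y hy
    apply bump_point (secVol K₂) h0 hm hAint V hV0 hVint y sg R m sg_pos hR0 hm0 _ hRloc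
    have hmeas : Measurable (bump sg y) := bump_meas _ _
    rw [hbr (bump sg y) hmeas (fun z => W4.bump_nonneg _ _ _)]
    simp only [hErow]
    have hcont : Continuous fun x : Fin (d + t) → ℝ => bump sg y (fun i => θ i ⬝ᵥ x) := by
      unfold bump
      have : ∀ i, Continuous fun x : Fin (d + t) → ℝ => θ i ⬝ᵥ x := fun i =>
        Continuous.dotProduct continuous_const continuous_id
      fun_prop
    have h1 : ∫ x in K₁, bump sg y (fun i => θ i ⬝ᵥ x) ≤ ∫ x in K₀, bump sg y (fun i => θ i ⬝ᵥ x) := by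
      apply setIntegral_mono_set (hcont.continuousOn.integrableOn_compact hK)
      · exact Filter.Eventually.of_forall fun x => W4.bump_nonneg _ _ _
      · exact hK₁sub.eventuallyLE
    have h2 := hbumpK y hy
    rw [hvK]
    have h3 : m * v₀ ≤ ∫ x in K₀, bump sg y (fun i => θ i ⬝ᵥ x) := by
      refine le_trans ?_ (h2.trans h1)
      rw [hmdef]
      have h4 : v₀ ≤ 100000000 * v₁ := by linarith
      have h5 : 0 ≤ c1 ^ t := hc1t0.le
      nlinarith
    calc m * (|E.det| * v₀) = |E.det| * (m * v₀) := by ring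
      _ ≤ _ := mul_le_mul_of_nonneg_left h3 hdet.le
  choose! u huy hux using hpt
  have hsq0 : 0 < Real.sqrt (2 * Real.pi) * sg :=
    mul_pos (Real.sqrt_pos.mpr (by positivity)) sg_pos
  set V₀ : ℝ := (m / 4) * V / (Real.sqrt (2 * Real.pi) * sg) ^ t with hV₀def
  have hV₀0 : 0 < V₀ := by positivity
  have hball := ball_of_points (by omega : 1 ≤ t) (secVol K₂) hl h0 V₀ hV₀0 ((ballGrid4 t).image u)
    (by
      intro w hw
      obtain ⟨y, hy, rfl⟩ := Finset.mem_image.mp hw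
      exact hux y hy)
    ((19997 / 20000) * Real.sqrt t) (by positivity)
    (by
      intro b hb
      obtain ⟨y, hyY, hy⟩ := ballGrid4_dir (by omega) b hb
      refine ⟨u y, Finset.mem_image_of_mem _ hyY, ?_⟩
      have h1 := W4.cs_unit (fun i => u y i - y i) b hb
      have h2 : (∑ i, (u y i - y i) * b i) ^ 2 ≤ R ^ 2 := h1.trans (huy y hyY)
      have h3 : - R ≤ ∑ i, (u y i - y i) * b i := by
        have := abs_le_of_sq_le_sq' h2 hR0
        exact this.1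
      have h4 : ∑ i, u y i * b i = ∑ i, y i * b i + ∑ i, (u y i - y i) * b i := by
        rw [← Finset.sum_add_distrib]
        apply Finset.sum_congr rfl
        intro i _
        ring
      rw [h4]
      rw [hRdef] at h3
      linarith)
  refine ⟨V₀, hE, hV₀0, ?_, ?_⟩
  · intro z hz
    apply hball
    rw [mul_pow, Real.sq_sqrt ht0.le]
    exact hz
  · -- the volume bound
    have h1 := c2_upper
    have hc1 := c1_pos
    have h2 : Real.sqrt (2 * Real.pi) * sg ≤ (4134 / 1000) * c1 := by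
      rwa [div_le_iff₀ hc1] at h1
    have h3 : (Real.sqrt (2 * Real.pi) * sg) ^ t ≤ ((4134 / 1000) * c1) ^ t :=
      pow_le_pow_left₀ hsq0.le h2 t
    have h3' : ((4134 / 1000 : ℝ) * c1) ^ t = (4134 / 1000 : ℝ) ^ t * c1 ^ t := mul_pow _ _ _
    rw [h3'] at h3
    have e : 800000000 * (4134 / 1000 : ℝ) ^ t * V₀ =
        ((4134 / 1000 : ℝ) ^ t * c1 ^ t) * V / (Real.sqrt (2 * Real.pi) * sg) ^ t := by
      rw [hV₀def, hmdef]
      ring
    rw [e, le_div_iff₀ (by positivity)]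
    calc V * (Real.sqrt (2 * Real.pi) * sg) ^ t ≤ V * ((4134 / 1000 : ℝ) ^ t * c1 ^ t) := mul_le_mul_of_nonneg_left h3 hV0.le
      _ = _ := by ring

end Vale.Agent.Lib.P230.WB4
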